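import Mathlib
import Vale.Agent.H33.P121.Setting
import Vale.Agent.H33.P121.Main

/-!
# P121: a necessary condition for optimal plans of the three-marginal Coulomb problem in `ℝ³`

Let `μ` be a Borel probability measure on `ℝ³`, absolutely continuous with respect to Lebesgue
measure, with finite Kantorovich value `E(μ)`, and let `a ≠ 0`.

* Every optimal plan `π ∈ Π(μ, μ, μ)` (cost equal to `E(μ)`) gives measure zero to the set of
  triples `(x₁, x₂, x₃)` with `⟪x₂ - x₁, a⟫ = 0` and `⟪x₃ - x₁, a⟫ = 0` (the three particles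
  lie in one plane orthogonal to `a`).
* For every optimal Monge plan `(Id, T₂, T₃)_* μ` (cost equal to `E(μ)`), the set of `x` with
  `⟪T₂ x - x, a⟫ = 0` and `⟪T₃ x - x, a⟫ = 0` is `μ`-null.
-/

open MeasureTheory
open scoped ENNReal

namespace Vale.Agent.Results.P121.A_FlatTriples

open Vale.Agent.H33.P121

/-- The Kantorovich value `E(μ)`: the infimum of the Coulomb cost `∫ c dπ` over all couplings
`π` on `(ℝ³)³` whose three marginals equal `μ`. -/
noncomputable def kantorovich (μ : Measure E3) : ℝ≥0∞ :=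
  ⨅ π : Measure (E3 × E3 × E3), ⨅ _ : IsPlan μ π, ∫⁻ p, coulomb p ∂π

theorem result (μ : Measure E3) [IsProbabilityMeasure μ] (hμ : μ ≪ volume)
    (hE : kantorovich μ ≠ ⊤) (a : E3) (ha : a ≠ 0) :
    (∀ π : Measure (E3 × E3 × E3), IsPlan μ π → ∫⁻ p, coulomb p ∂π = kantorovich μ →
        π {p | inner ℝ (p.2.1 - p.1) a = 0 ∧ inner ℝ (p.2.2 - p.1) a = 0} = 0) ∧
    (∀ T2 T3 : E3 → E3, MeasurePreserving T2 μ μ → MeasurePreserving T3 μ μ →
        ∫⁻ x, coulomb (x, T2 x, T3 x) ∂μ = kantorovich μ →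
        μ {x | inner ℝ (T2 x - x) a = 0 ∧ inner ℝ (T3 x - x) a = 0} = 0) := by
  have hle : ∀ π' : Measure (E3 × E3 × E3), IsPlan μ π' →
      kantorovich μ ≤ ∫⁻ p, coulomb p ∂π' := fun π' hπ' =>
    iInf₂_le (f := fun (π : Measure (E3 × E3 × E3)) (_ : IsPlan μ π) => ∫⁻ p, coulomb p ∂π)
      π' hπ'
  refine ⟨fun π hπ hopt => ?_, fun T2 T3 h2 h3 hopt => ?_⟩
  · exact plan_flat_null μ hμ π hπ (by rw [hopt]; exact hE)
      (fun π' hπ' => by rw [hopt]; exact hle π' hπ') a ha
  · exact monge_flat_null μ hμ T2 T3 h2 h3 (by rw [hopt]; exact hE)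
      (fun π' hπ' => by rw [hopt]; exact hle π' hπ') a ha

end Vale.Agent.Results.P121.A_FlatTriples
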