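import Mathlib
import Vale.Agent.H33.P121.Setting
import Vale.Agent.Results.P121.A_FlatTriples

/-!
# P121: flat triples, and Monge plans whose maps preserve a linear coordinate are never optimal

Let `μ` be a Borel probability measure on `ℝ³`, absolutely continuous with respect to Lebesgue
measure, with finite Kantorovich value `E(μ)`, and let `a ≠ 0`.

* (i), (ii): the statement of the hand-in `A_FlatTriples` (optimal plans give measure zero to the
  triples lying in one plane orthogonal to `a`; the Monge form).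
* (iii): if `T₂, T₃` preserve `μ` and both preserve the coordinate `⟪·, a⟫`, then the cost of the
  Monge plan `(Id, T₂, T₃)_* μ` is not `E(μ)`: this Monge plan is not optimal.
-/

open MeasureTheory
open scoped ENNReal

namespace Vale.Agent.Results.P121.B_CoordinatePreservingMaps

open Vale.Agent.H33.P121 Vale.Agent.Results.P121.A_FlatTriples

theorem result (μ : Measure E3) [IsProbabilityMeasure μ] (hμ : μ ≪ volume)
    (hE : kantorovich μ ≠ ⊤) (a : E3) (ha : a ≠ 0) :
    (∀ π : Measure (E3 × E3 × E3), IsPlan μ π → ∫⁻ p, coulomb p ∂π = kantorovich μ →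
        π {p | inner ℝ (p.2.1 - p.1) a = 0 ∧ inner ℝ (p.2.2 - p.1) a = 0} = 0) ∧
    (∀ T2 T3 : E3 → E3, MeasurePreserving T2 μ μ → MeasurePreserving T3 μ μ →
        ∫⁻ x, coulomb (x, T2 x, T3 x) ∂μ = kantorovich μ →
        μ {x | inner ℝ (T2 x - x) a = 0 ∧ inner ℝ (T3 x - x) a = 0} = 0) ∧
    (∀ T2 T3 : E3 → E3, MeasurePreserving T2 μ μ → MeasurePreserving T3 μ μ →
        (∀ x, inner ℝ (T2 x) a = inner ℝ x a) → (∀ x, inner ℝ (T3 x) a = inner ℝ x a) →
        ∫⁻ x, coulomb (x, T2 x, T3 x) ∂μ ≠ kantorovich μ) := by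
  have h := Vale.Agent.Results.P121.A_FlatTriples.result μ hμ hE a ha
  refine ⟨h.1, h.2, ?_⟩
  intro T2 T3 h2 h3 hT2 hT3 hopt
  have h0 := h.2 T2 T3 h2 h3 hopt
  have huniv : {x : E3 | inner ℝ (T2 x - x) a = 0 ∧ inner ℝ (T3 x - x) a = 0} = Set.univ := by
    ext x
    refine ⟨fun _ => Set.mem_univ x, fun _ => ?_⟩
    show inner ℝ (T2 x - x) a = 0 ∧ inner ℝ (T3 x - x) a = 0
    rw [inner_sub_left, inner_sub_left, hT2 x, hT3 x]
    exact ⟨sub_self _, sub_self _⟩
  rw [huniv, measure_univ] at h0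
  exact one_ne_zero h0

end Vale.Agent.Results.P121.B_CoordinatePreservingMaps
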